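import Mathlib

/-!
# P032: the finite facts about five colours (masks `< 32`, bit `0` marked)
-/

namespace Vale.Agent.P032.Words6.H360

/-- the pairs -/
def L2 : List ℕ := [3, 5, 6, 9, 10, 12, 17, 18, 20, 24]

/-- the triples -/
def L3 : List ℕ := [7, 11, 13, 14, 19, 21, 22, 25, 26, 28]

/-- neighbouring palettes: a pair is disjoint from its neighbours, two triples have one common
colour at most -/
def nbM (a b : ℕ) : Bool :=
  cond (Nat.beq (Nat.land a b) 0) true
    (cond (L3.any (Nat.beq a)) (cond (L3.any (Nat.beq b))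
      (Nat.beq (Nat.land (Nat.land a b) (Nat.pred (Nat.land a b))) 0) false) false)

/-- the pairs below a palette -/
def lets (t : ℕ) : List ℕ := L2.filter fun p => Nat.beq (Nat.land p t) p

/-- the marked positions -/
def zM (a b c d e f : ℕ) : ℕ :=
  Nat.land a 1 + 2 * Nat.land b 1 + 4 * Nat.land c 1 + 8 * Nat.land d 1 + 16 * Nat.land e 1 +
    32 * Nat.land f 1

/-- the class of a word -/
def clM (a b c d e f : ℕ) : ℕ :=
  cond (Nat.beq (Nat.land (zM a b c d e f) 42) 0) 0
    (cond (Nat.beq (Nat.land (zM a b c d e f) 21) 0) 1 (2 + zM a b c d e f))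

/-- disjoint masks -/
def dj (a b : ℕ) : Bool := Nat.beq (Nat.land a b) 0

/-- antipodal letters do not fill the unmarked colours -/
def op (a b : ℕ) : Bool := cond (Nat.beq (Nat.lor a b) 30) false true

/-- every legal word below the palettes satisfies `p` -/
def allW (a b c d e f : List ℕ) (p : ℕ → ℕ → ℕ → ℕ → ℕ → ℕ → Bool) : Bool :=
  a.all fun h0 => b.all fun h1 => cond (dj h0 h1) (c.all fun h2 => cond (dj h1 h2) (d.all fun h3 =>
    cond (dj h2 h3) (cond (op h0 h3) (e.all fun h4 => cond (dj h3 h4) (cond (op h1 h4)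
      (f.all fun h5 => cond (dj h4 h5) (cond (dj h5 h0) (cond (op h2 h5) (p h0 h1 h2 h3 h4 h5)
        true) true) true) true) true) true) true) true) true

theorem allW_iff {a b c d e f : List ℕ} {p : ℕ → ℕ → ℕ → ℕ → ℕ → ℕ → Bool}
    (h : allW a b c d e f p = true) {h0 h1 h2 h3 h4 h5 : ℕ} (m0 : h0 ∈ a) (m1 : h1 ∈ b)
    (m2 : h2 ∈ c) (m3 : h3 ∈ d) (m4 : h4 ∈ e) (m5 : h5 ∈ f) (d0 : dj h0 h1 = true)
    (d1 : dj h1 h2 = true) (d2 : dj h2 h3 = true) (d3 : dj h3 h4 = true) (d4 : dj h4 h5 = true)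
    (d5 : dj h5 h0 = true) (o0 : op h0 h3 = true) (o1 : op h1 h4 = true) (o2 : op h2 h5 = true) :
    p h0 h1 h2 h3 h4 h5 = true := by
  unfold allW at h
  rw [List.all_eq_true] at h
  have h := h h0 m0
  rw [List.all_eq_true] at h
  have h := h h1 m1
  rw [d0, cond_true, List.all_eq_true] at h
  have h := h h2 m2
  rw [d1, cond_true, List.all_eq_true] at h
  have h := h h3 m3
  rw [d2, cond_true, o0, cond_true, List.all_eq_true] at h
  have h := h h4 m4
  rw [d3, cond_true, o1, cond_true, List.all_eq_true] at h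
  have h := h h5 m5
  rw [d4, cond_true, d5, cond_true, o2, cond_true] at h
  exact h

/-- every legal word changes its class under the rotation -/
def chk0 : Bool := allW L2 L2 L2 L2 L2 L2 fun a b c d e f =>
  cond (Nat.beq (clM a b c d e f) (clM b c d e f a)) false true

theorem chk0_true : chk0 = true := by decide +kernel

/-- the legal words below the palettes have one class -/
def one (a b c d e f : ℕ) : Bool :=
  [0, 1, 11, 20, 38].any fun cl =>
    allW (lets a) (lets b) (lets c) (lets d) (lets e) (lets f) fun h0 h1 h2 h3 h4 h5 =>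
      Nat.beq (clM h0 h1 h2 h3 h4 h5) cl

/-- every box satisfies `p` -/
def allB (L : List ℕ) (p : ℕ → ℕ → ℕ → ℕ → ℕ → ℕ → Bool) : Bool :=
  L.all fun a => L.all fun b => cond (nbM a b) (L.all fun c => cond (nbM b c) (L.all fun d =>
    cond (nbM c d) (L.all fun e => cond (nbM d e) (L.all fun f =>
      cond (nbM e f) (cond (nbM f a) (p a b c d e f) true) true) true) true) true) true

theorem allB_iff {L : List ℕ} {p : ℕ → ℕ → ℕ → ℕ → ℕ → ℕ → Bool}
    (h : allB L p = true) {h0 h1 h2 h3 h4 h5 : ℕ} (m0 : h0 ∈ L) (m1 : h1 ∈ L)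
    (m2 : h2 ∈ L) (m3 : h3 ∈ L) (m4 : h4 ∈ L) (m5 : h5 ∈ L) (d0 : nbM h0 h1 = true)
    (d1 : nbM h1 h2 = true) (d2 : nbM h2 h3 = true) (d3 : nbM h3 h4 = true)
    (d4 : nbM h4 h5 = true) (d5 : nbM h5 h0 = true) :
    p h0 h1 h2 h3 h4 h5 = true := by
  unfold allB at h
  rw [List.all_eq_true] at h
  have h := h h0 m0
  rw [List.all_eq_true] at h
  have h := h h1 m1
  rw [d0, cond_true, List.all_eq_true] at h
  have h := h h2 m2
  rw [d1, cond_true, List.all_eq_true] at h
  have h := h h3 m3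
  rw [d2, cond_true, List.all_eq_true] at h
  have h := h h4 m4
  rw [d3, cond_true, List.all_eq_true] at h
  have h := h h5 m5
  rw [d4, cond_true, d5, cond_true] at h
  exact h

/-- all six masks are triples -/
def sixT (a b c d e f : ℕ) : Bool :=
  cond (L3.any (Nat.beq a)) (cond (L3.any (Nat.beq b)) (cond (L3.any (Nat.beq c))
    (cond (L3.any (Nat.beq d)) (cond (L3.any (Nat.beq e)) (L3.any (Nat.beq f)) false) false) false)
    false) false

/-- a box with a pair has one class -/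
def chk1 : Bool := allB (L2 ++ L3) fun a b c d e f =>
  cond (sixT a b c d e f) true (one a b c d e f)

theorem chk1_true : chk1 = true := by decide +kernel

/-- the permutations of the four unmarked colours -/
def prm : List (ℕ × ℕ × ℕ × ℕ) := [2, 4, 8, 16].flatMap fun r => [2, 4, 8, 16].flatMap fun s =>
  [2, 4, 8, 16].flatMap fun c => [2, 4, 8, 16].filterMap fun d =>
    if r ≠ s ∧ r ≠ c ∧ r ≠ d ∧ s ≠ c ∧ s ≠ d ∧ c ≠ d then some (r, s, c, d) else none

/-- one of the two words has the letter `m` -/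
def has (m h0 h1 h2 h3 h4 h5 g0 g1 g2 g3 g4 g5 : ℕ) : Bool :=
  [h0, h1, h2, h3, h4, h5, g0, g1, g2, g3, g4, g5].any (Nat.beq m)

/-- all pairs between two and three colours are letters -/
def cut (h0 h1 h2 h3 h4 h5 g0 g1 g2 g3 g4 g5 : ℕ) : Bool :=
  L2.any fun A => L2.all fun m => cond (Nat.beq (Nat.land m A) 0) true
    (cond (Nat.beq m A) true (has m h0 h1 h2 h3 h4 h5 g0 g1 g2 g3 g4 g5))

/-- a blocked line: the palettes `a`, `a'`, the letters of the two words, `w`: all letters there -/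
def blk (a a' h h' g g' : ℕ) (w : ℕ → ℕ → Bool) (l : ℕ → Bool) : Bool :=
  prm.any fun q => cond (Nat.beq a (1 + q.1 + q.2.2.2)) (cond (Nat.beq a' (1 + q.2.1 + q.2.2.1))
    (cond (Nat.beq h (q.1 + q.2.2.2)) (cond (Nat.beq h' (q.2.1 + 1)) (cond (Nat.beq g (q.1 + 1))
    (cond (Nat.beq g' (q.2.1 + q.2.2.1)) (cond (l (q.2.2.1 + q.2.2.2)) (w q.1 q.2.1)
    false) false) false) false) false) false) false

/-- the line `0`, `3` is blocked, one way or the other -/
def blk0 (a b c d e f h0 h1 h2 h3 h4 h5 g0 g1 g2 g3 g4 g5 : ℕ) : Bool :=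
  cond (blk a d h0 h3 g0 g3 (fun r s => allW (lets a) (lets b) (lets c) (lets d) (lets e) (lets f)
      fun w0 _ _ w3 _ _ => cond (Nat.beq (Nat.land w0 r) r) (Nat.beq (Nat.land w3 s) s) false)
      fun m => has m h0 h1 h2 h3 h4 h5 g0 g1 g2 g3 g4 g5) true
    (blk d a h3 h0 g3 g0 (fun r s => allW (lets a) (lets b) (lets c) (lets d) (lets e) (lets f)
      fun w0 _ _ w3 _ _ => cond (Nat.beq (Nat.land w3 r) r) (Nat.beq (Nat.land w0 s) s) false)
      fun m => has m h0 h1 h2 h3 h4 h5 g0 g1 g2 g3 g4 g5)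

/-- blocked in one of the orders of the two words -/
def blkS (a b c d e f h0 h1 h2 h3 h4 h5 g0 g1 g2 g3 g4 g5 : ℕ) : Bool :=
  cond (blk0 a b c d e f h0 h1 h2 h3 h4 h5 g0 g1 g2 g3 g4 g5) true
    (blk0 a b c d e f g0 g1 g2 g3 g4 g5 h0 h1 h2 h3 h4 h5)

/-- two lines are blocked -/
def two (a b c d e f h0 h1 h2 h3 h4 h5 g0 g1 g2 g3 g4 g5 : ℕ) : Bool :=
  cond (blkS a b c d e f h0 h1 h2 h3 h4 h5 g0 g1 g2 g3 g4 g5)
    (cond (blkS b c d e f a h1 h2 h3 h4 h5 h0 g1 g2 g3 g4 g5 g0) true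
      (blkS c d e f a b h2 h3 h4 h5 h0 h1 g2 g3 g4 g5 g0 g1))
    (cond (blkS b c d e f a h1 h2 h3 h4 h5 h0 g1 g2 g3 g4 g5 g0)
      (blkS c d e f a b h2 h3 h4 h5 h0 h1 g2 g3 g4 g5 g0 g1) false)

/-- the alternating palettes -/
def altM (a b c d e f : ℕ) : Bool :=
  cond (Nat.beq a c) (cond (Nat.beq c e) (cond (Nat.beq b d) (cond (Nat.beq d f)
    (Nat.beq (Nat.land a b) 1) false) false) false) false

/-- six triples -/
def chk2 : Bool := allB L3 fun a b c d e f => cond (one a b c d e f) true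
  (cond (altM a b c d e f) true
    (allW (lets a) (lets b) (lets c) (lets d) (lets e) (lets f) fun h0 h1 h2 h3 h4 h5 =>
      allW (lets a) (lets b) (lets c) (lets d) (lets e) (lets f) fun g0 g1 g2 g3 g4 g5 =>
        cond (Nat.beq (clM h0 h1 h2 h3 h4 h5) (clM g0 g1 g2 g3 g4 g5)) true
          (cond (cut h0 h1 h2 h3 h4 h5 g0 g1 g2 g3 g4 g5) true
            (two a b c d e f h0 h1 h2 h3 h4 h5 g0 g1 g2 g3 g4 g5))))

theorem chk2_true : chk2 = true := by decide +kernel

end Vale.Agent.P032.Words6.H360
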